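import Mathlib

/-!
(S3) of note REF 6: the topological end of the case W = 0 of 3.6.  A kernel K on a space B in which
complements of pairs of points are connected cannot have rank at most 3 if it vanishes exactly on
the diagonal and is positive elsewhere.
-/

namespace Vale.Agent.P207.N3.H340

variable {B : Type*}

/-- Dependence of four functions K(., y_i) for all quadruples gives dependence of four
evaluations. -/
theorem rel4 (K : B → B → ℝ)
    (hr : ∀ y : Fin 4 → B, ∃ c : Fin 4 → ℝ, c ≠ 0 ∧ ∀ x, ∑ i, c i * K x (y i) = 0)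
    (x : Fin 4 → B) : ∃ d : Fin 4 → ℝ, d ≠ 0 ∧ ∀ y, ∑ i, d i * K (x i) y = 0 := by
  classical
  by_cases hs : Submodule.span ℝ (Set.range (fun (y : B) (i : Fin 4) => K (x i) y)) = ⊤
  · exfalso
    obtain ⟨f, hf, -, hli⟩ := Submodule.exists_fun_fin_finrank_span_eq ℝ
      (Set.range (fun (y : B) (i : Fin 4) => K (x i) y))
    have h4 : Module.finrank ℝ (Submodule.span ℝ
        (Set.range (fun (y : B) (i : Fin 4) => K (x i) y))) = 4 := by
      rw [hs]; simp
    have hli' : LinearIndependent ℝ (fun i : Fin 4 => f (Fin.cast h4.symm i)) :=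
      hli.comp _ (Fin.cast_injective _)
    have hf' : ∀ i : Fin 4, ∃ y, (fun (i : Fin 4) => K (x i) y) = f (Fin.cast h4.symm i) :=
      fun i => hf _
    choose y hy using hf'
    obtain ⟨c, hc, hcx⟩ := hr y
    apply hc
    have := Fintype.linearIndependent_iff.1 hli' c (by
      funext j
      simp only [Finset.sum_apply, Pi.smul_apply, smul_eq_mul, Pi.zero_apply]
      rw [← hcx (x j)]
      refine Finset.sum_congr rfl (fun i _ => ?_)
      rw [← hy i])
    funext i
    exact this i
  · obtain ⟨φ, hφ, hker⟩ := Submodule.exists_le_ker_of_lt_top _ (lt_top_iff_ne_top.2 hs)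
    refine ⟨fun i => φ (Pi.single i 1), ?_, ?_⟩
    · intro h
      apply hφ
      refine LinearMap.ext (fun v => ?_)
      rw [LinearMap.zero_apply, LinearMap.pi_apply_eq_sum_univ φ v]
      refine Finset.sum_eq_zero (fun i _ => ?_)
      have := congrFun h i
      simp only [Pi.zero_apply] at this
      have h2 : (fun j => if i = j then (1 : ℝ) else 0) = Pi.single i 1 := by
        funext j
        simp [Pi.single_apply, eq_comm]
      rw [h2, this, smul_zero]
    · intro y
      have h1 : (fun (i : Fin 4) => K (x i) y) ∈ LinearMap.ker φ :=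
        hker (Submodule.subset_span ⟨y, rfl⟩)
      rw [LinearMap.mem_ker, LinearMap.pi_apply_eq_sum_univ φ] at h1
      rw [← h1]
      refine Finset.sum_congr rfl (fun i _ => ?_)
      have h2 : (fun j => if i = j then (1 : ℝ) else 0) = Pi.single i 1 := by
        funext j
        simp [Pi.single_apply, eq_comm]
      rw [h2, smul_eq_mul, mul_comm]

/-- four named points -/
theorem rel4' (K : B → B → ℝ)
    (hr : ∀ y : Fin 4 → B, ∃ c : Fin 4 → ℝ, c ≠ 0 ∧ ∀ x, ∑ i, c i * K x (y i) = 0)
    (h0 : ∀ x, K x x = 0) (hp : ∀ x y, x ≠ y → 0 < K x y) {a b c d : B}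
    (hab : a ≠ b) (hac : a ≠ c) (had : a ≠ d) (hbc : b ≠ c) (hbd : b ≠ d) (hcd : c ≠ d) :
    ∃ α β γ δ : ℝ, α ≠ 0 ∧ β ≠ 0 ∧ γ ≠ 0 ∧ δ ≠ 0 ∧
      ∀ y, α * K a y + β * K b y + γ * K c y + δ * K d y = 0 := by
  obtain ⟨e, he, hey⟩ := rel4 K hr ![a, b, c, d]
  have hrel : ∀ y, e 0 * K a y + e 1 * K b y + e 2 * K c y + e 3 * K d y = 0 := by
    intro y
    have := hey y
    simpa [Fin.sum_univ_four] using this
  have ne : ∀ {α β γ δ : ℝ} {a b c d : B}, a ≠ b → a ≠ c → a ≠ d → b ≠ c → b ≠ d → c ≠ d →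
      (∀ y, α * K a y + β * K b y + γ * K c y + δ * K d y = 0) → α = 0 →
      β = 0 ∧ γ = 0 ∧ δ = 0 := by
    intro α β γ δ a b c d hab hac had hbc hbd hcd h hα
    have e1 := h b
    have e2 := h c
    have e3 := h d
    rw [hα, h0] at e1 e2 e3
    have p1 := hp c b hbc.symm
    have p2 := hp d b hbd.symm
    have p3 := hp b c hbc
    have p4 := hp d c hcd.symm
    have p5 := hp b d hbd
    have p6 := hp c d hcd
    have f1 : γ * K c b + δ * K d b = 0 := by linarith
    have f2 : β * K b c + δ * K d c = 0 := by linarith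
    have f3 : β * K b d + γ * K c d = 0 := by linarith
    rcases lt_trichotomy β 0 with hβ | hβ | hβ
    · have g1 : 0 < δ := by
        by_contra hδ
        nlinarith [mul_pos_of_neg_of_neg hβ (neg_lt_zero.2 p3), not_lt.1 hδ]
      have g2 : 0 < γ := by
        by_contra hγ
        nlinarith [mul_pos_of_neg_of_neg hβ (neg_lt_zero.2 p5), not_lt.1 hγ]
      nlinarith [mul_pos g1 p2, mul_pos g2 p1]
    · subst hβ
      have g1 : δ = 0 := by
        have : δ * K d c = 0 := by linarith
        rcases mul_eq_zero.1 this with h | h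
        · exact h
        · exact absurd h p4.ne'
      have g2 : γ = 0 := by
        have : γ * K c d = 0 := by linarith
        rcases mul_eq_zero.1 this with h | h
        · exact h
        · exact absurd h p6.ne'
      exact ⟨rfl, g2, g1⟩
    · have g1 : δ < 0 := by
        by_contra hδ
        nlinarith [mul_pos hβ p3, mul_nonneg (not_lt.1 hδ) p4.le]
      have g2 : γ < 0 := by
        by_contra hγ
        nlinarith [mul_pos hβ p5, mul_nonneg (not_lt.1 hγ) p6.le]
      nlinarith [mul_pos_of_neg_of_neg g1 (neg_lt_zero.2 p2),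
        mul_pos_of_neg_of_neg g2 (neg_lt_zero.2 p1)]
  have hz : ¬ (e 0 = 0 ∧ e 1 = 0 ∧ e 2 = 0 ∧ e 3 = 0) := by
    rintro ⟨h0', h1', h2', h3'⟩
    apply he
    funext i
    fin_cases i <;> simp [h0', h1', h2', h3']
  refine ⟨e 0, e 1, e 2, e 3, ?_, ?_, ?_, ?_, hrel⟩
  · intro h
    exact hz ⟨h, ne hab hac had hbc hbd hcd hrel h⟩
  · intro h
    obtain ⟨q1, q2, q3⟩ := ne hab.symm hbc hbd hac had hcd (α := e 1) (β := e 0) (γ := e 2)
      (δ := e 3) (fun y => by have := hrel y; linarith) h
    exact hz ⟨q1, h, q2, q3⟩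
  · intro h
    obtain ⟨q1, q2, q3⟩ := ne hac.symm hbc.symm hcd hab had hbd (α := e 2) (β := e 0)
      (γ := e 1) (δ := e 3) (fun y => by have := hrel y; linarith) h
    exact hz ⟨q1, q2, h, q3⟩
  · intro h
    obtain ⟨q1, q2, q3⟩ := ne had.symm hbd.symm hcd.symm hab hac hbc (α := e 3) (β := e 0)
      (γ := e 1) (δ := e 2) (fun y => by have := hrel y; linarith) h
    exact hz ⟨q1, q2, q3, h⟩

/-- A relation between four distinct points cannot have two coefficients of the same sign. -/
theorem core [TopologicalSpace B] (K : B → B → ℝ) (hK : ∀ y, Continuous (fun x => K x y))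
    (h0 : ∀ x, K x x = 0) (hp : ∀ x y, x ≠ y → 0 < K x y)
    (hr : ∀ y : Fin 4 → B, ∃ c : Fin 4 → ℝ, c ≠ 0 ∧ ∀ x, ∑ i, c i * K x (y i) = 0)
    (hB : ∀ a b : B, IsPreconnected ({a, b}ᶜ : Set B)) {a b c d : B}
    (hab : a ≠ b) (hac : a ≠ c) (had : a ≠ d) (hbc : b ≠ c) (hbd : b ≠ d) (hcd : c ≠ d)
    {α β γ δ : ℝ} (hrel : ∀ y, α * K a y + β * K b y + γ * K c y + δ * K d y = 0)
    (hγδ : 0 < γ * δ) : False := by
  set f : B → ℝ := fun x => K x c - K b c / K b a * K x a - K a c / K a b * K x b with hf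
  have pab := hp a b hab
  have pba := hp b a hab.symm
  have pac := hp a c hac
  have pca := hp c a hac.symm
  have pbc := hp b c hbc
  have pcb := hp c b hbc.symm
  have hfc : Continuous f := by
    refine ((hK c).sub (continuous_const.mul (hK a))).sub (continuous_const.mul (hK b))
  have hfa : f a = 0 := by
    simp only [hf, h0]
    field_simp
    ring
  have hfb : f b = 0 := by
    simp only [hf, h0]
    field_simp
    ring
  have hfcneg : f c < 0 := by
    simp only [hf, h0]
    have h1 : 0 < K b c / K b a * K c a := by positivity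
    have h2 : 0 < K a c / K a b * K c b := by positivity
    linarith
  have frel : ∀ {p q r s : B} {α β γ δ : ℝ},
      (∀ y, α * K p y + β * K q y + γ * K r y + δ * K s y = 0) →
      α * f p + β * f q + γ * f r + δ * f s = 0 := by
    intro p q r s α β γ δ h
    have e1 := h c
    have e2 := h a
    have e3 := h b
    simp only [hf]
    linear_combination e1 - K b c / K b a * e2 - K a c / K a b * e3
  have hne : ∀ x, x ∈ ({a, b}ᶜ : Set B) → f x ≠ 0 := by
    intro x hx hfx
    have hxa : a ≠ x := by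
      rintro rfl
      exact hx (by simp)
    have hxb : b ≠ x := by
      rintro rfl
      exact hx (by simp)
    have hxc : c ≠ x := by
      rintro rfl
      exact hfcneg.ne hfx
    obtain ⟨α', β', γ', δ', -, -, hγ', -, h⟩ := rel4' K hr h0 hp hab hac hxa hbc hxb hxc
    have := frel h
    rw [hfa, hfb, hfx] at this
    have h3 : γ' * f c = 0 := by linarith
    rcases mul_eq_zero.1 h3 with h4 | h4
    · exact hγ' h4
    · exact hfcneg.ne h4
  have hc' : c ∈ ({a, b}ᶜ : Set B) := by
    simp only [Set.mem_compl_iff, Set.mem_insert_iff, Set.mem_singleton_iff, not_or]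
    exact ⟨hac.symm, hbc.symm⟩
  have hd' : d ∈ ({a, b}ᶜ : Set B) := by
    simp only [Set.mem_compl_iff, Set.mem_insert_iff, Set.mem_singleton_iff, not_or]
    exact ⟨had.symm, hbd.symm⟩
  have hfd : f d < 0 := by
    by_contra hnd
    have himg : IsPreconnected (f '' ({a, b}ᶜ : Set B)) :=
      (hB a b).image f hfc.continuousOn
    have hord := himg.ordConnected
    have : (0 : ℝ) ∈ f '' ({a, b}ᶜ : Set B) :=
      hord.out ⟨c, hc', rfl⟩ ⟨d, hd', rfl⟩ ⟨hfcneg.le, not_lt.1 hnd⟩
    obtain ⟨x, hx, hx0⟩ := this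
    exact hne x hx hx0
  have h := frel hrel
  rw [hfa, hfb] at h
  have h1 : γ * f c + δ * f d = 0 := by linarith
  rcases pos_and_pos_or_neg_and_neg_of_mul_pos hγδ with ⟨g1, g2⟩ | ⟨g1, g2⟩
  · nlinarith [mul_pos g1 (neg_pos.2 hfcneg), mul_pos g2 (neg_pos.2 hfd)]
  · nlinarith [mul_pos_of_neg_of_neg g1 hfcneg, mul_pos_of_neg_of_neg g2 hfd]

/-- (S3): there is no kernel of rank at most 3 on such a space. -/
theorem no_rank3 [TopologicalSpace B] (K : B → B → ℝ) (hK : ∀ y, Continuous (fun x => K x y))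
    (h0 : ∀ x, K x x = 0) (hp : ∀ x y, x ≠ y → 0 < K x y)
    (hr : ∀ y : Fin 4 → B, ∃ c : Fin 4 → ℝ, c ≠ 0 ∧ ∀ x, ∑ i, c i * K x (y i) = 0)
    (hB : ∀ a b : B, IsPreconnected ({a, b}ᶜ : Set B))
    (p : Fin 4 → B) (hpi : Function.Injective p) : False := by
  have n01 : p 0 ≠ p 1 := fun h => absurd (hpi h) (by decide)
  have n02 : p 0 ≠ p 2 := fun h => absurd (hpi h) (by decide)
  have n03 : p 0 ≠ p 3 := fun h => absurd (hpi h) (by decide)
  have n12 : p 1 ≠ p 2 := fun h => absurd (hpi h) (by decide)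
  have n13 : p 1 ≠ p 3 := fun h => absurd (hpi h) (by decide)
  have n23 : p 2 ≠ p 3 := fun h => absurd (hpi h) (by decide)
  obtain ⟨α, β, γ, δ, hα, hβ, hγ, hδ, h⟩ := rel4' K hr h0 hp n01 n02 n03 n12 n13 n23
  rcases lt_or_gt_of_ne (mul_ne_zero hγ hδ) with h1 | h1
  · rcases lt_or_gt_of_ne (mul_ne_zero hβ hδ) with h2 | h2
    · have h3 : 0 < β * γ := by
        have : 0 < (γ * δ) * (β * δ) := mul_pos_of_neg_of_neg h1 h2
        have hd2 : 0 < δ * δ := mul_self_pos.2 hδ
        by_contra hcon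
        have : (β * γ) * (δ * δ) ≤ 0 := mul_nonpos_of_nonpos_of_nonneg (not_lt.1 hcon) hd2.le
        nlinarith
      exact core K hK h0 hp hr hB n03 n01 n02 n13.symm n23.symm n12
        (α := α) (β := δ) (γ := β) (δ := γ) (fun y => by have := h y; linarith) h3
    · exact core K hK h0 hp hr hB n02 n01 n03 n12.symm n23 n13
        (α := α) (β := γ) (γ := β) (δ := δ) (fun y => by have := h y; linarith) h2
  · exact core K hK h0 hp hr hB n01 n02 n03 n12 n13 n23 h h1

end Vale.Agent.P207.N3.H340
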