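import Vale.Agent.P207.N3.H340.Rank3

/-!
(S3) of note REF 6, second half: if all the functions K(., eta) satisfy ONE linear second order
system (coefficients independent of eta), then any four of them are linearly dependent, and
`no_rank3` applies.
-/

namespace Vale.Agent.P207.N3.H340

open Set Metric Module Filter Topology

variable {B : Type*} {E : Type*} [NormedAddCommGroup E] [NormedSpace ℝ E]

/-- Local uniqueness: zero Cauchy data at one point of a ball force the solution to vanish on the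
ball. -/
theorem zero_of_system {v : E → ℝ} {p : E} {r C : ℝ} (hC : 0 ≤ C)
    {b : E → (ℝ × (E →L[ℝ] ℝ)) →ₗ[ℝ] (E →L[ℝ] E →L[ℝ] ℝ)}
    (hb : ∀ x ∈ ball p r, ∀ u, ‖b x u‖ ≤ C * ‖u‖)
    (hv : ∀ x ∈ ball p r, ContDiffAt ℝ 2 v x)
    (heq : ∀ x ∈ ball p r, fderiv ℝ (fderiv ℝ v) x = b x (v x, fderiv ℝ v x))
    {z : E} (hz : z ∈ ball p r) (hz0 : v z = 0) (hz1 : fderiv ℝ v z = 0) :
    ∀ w ∈ ball p r, v w = 0 := by
  intro w hw
  have hseg : ∀ t ∈ Icc (0 : ℝ) 1, z + t • (w - z) ∈ ball p r := by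
    intro t ht
    exact (convex_ball p r).add_smul_sub_mem hz hw ht
  set g : ℝ → ℝ × (E →L[ℝ] ℝ) := fun t => (v (z + t • (w - z)), fderiv ℝ v (z + t • (w - z)))
    with hg
  set g' : ℝ → ℝ × (E →L[ℝ] ℝ) := fun t => (fderiv ℝ v (z + t • (w - z)) (w - z),
    fderiv ℝ (fderiv ℝ v) (z + t • (w - z)) (w - z)) with hg'
  have hder : ∀ t ∈ Icc (0 : ℝ) 1, HasDerivAt g (g' t) t := by
    intro t ht
    have hc := hv _ (hseg t ht)
    have h1 : HasFDerivAt v (fderiv ℝ v (z + t • (w - z))) (z + t • (w - z)) :=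
      (hc.differentiableAt (by norm_num)).hasFDerivAt
    have h2 : HasFDerivAt (fderiv ℝ v) (fderiv ℝ (fderiv ℝ v) (z + t • (w - z)))
        (z + t • (w - z)) :=
      ((hc.fderiv_right (m := 1) (by norm_num)).differentiableAt (by norm_num)).hasFDerivAt
    have hl : HasDerivAt (fun t : ℝ => z + t • (w - z)) (w - z) t := by
      simpa using ((hasDerivAt_id t).smul_const (w - z)).const_add z
    exact (h1.comp_hasDerivAt t hl).prodMk (h2.comp_hasDerivAt t hl)
  have hcont : ContinuousOn g (Icc 0 1) := fun t ht => (hder t ht).continuousAt.continuousWithinAt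
  have hbound : ∀ t ∈ Ico (0 : ℝ) 1, ‖g' t‖ ≤ ((C + 1) * ‖w - z‖) * ‖g t‖ + 0 := by
    intro t ht
    have hm := hseg t (Ico_subset_Icc_self ht)
    have n1 : ‖fderiv ℝ v (z + t • (w - z))‖ ≤ ‖g t‖ := norm_snd_le (g t)
    have hgn : 0 ≤ ‖g t‖ := norm_nonneg _
    have hwn : 0 ≤ ‖w - z‖ := norm_nonneg _
    rw [add_zero, Prod.norm_def]
    refine max_le ?_ ?_
    · calc ‖fderiv ℝ v (z + t • (w - z)) (w - z)‖
          ≤ ‖fderiv ℝ v (z + t • (w - z))‖ * ‖w - z‖ := ContinuousLinearMap.le_opNorm _ _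
        _ ≤ ‖g t‖ * ‖w - z‖ := by gcongr
        _ ≤ ((C + 1) * ‖w - z‖) * ‖g t‖ := by nlinarith [mul_nonneg hC (mul_nonneg hgn hwn)]
    · have h3 : ‖fderiv ℝ (fderiv ℝ v) (z + t • (w - z))‖ ≤ C * ‖g t‖ := by
        rw [heq _ hm]
        exact hb _ hm _
      calc ‖fderiv ℝ (fderiv ℝ v) (z + t • (w - z)) (w - z)‖
          ≤ ‖fderiv ℝ (fderiv ℝ v) (z + t • (w - z))‖ * ‖w - z‖ :=
            ContinuousLinearMap.le_opNorm _ _
        _ ≤ (C * ‖g t‖) * ‖w - z‖ := by gcongr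
        _ ≤ ((C + 1) * ‖w - z‖) * ‖g t‖ := by nlinarith [mul_nonneg hgn hwn]
  have hg0 : ‖g 0‖ ≤ 0 := by
    simp only [hg, zero_smul, add_zero, hz0, hz1]
    simp
  have := norm_le_gronwallBound_of_norm_deriv_right_le hcont
    (fun t ht => (hder t (Ico_subset_Icc_self ht)).hasDerivWithinAt) hg0 hbound 1
    (right_mem_Icc.2 zero_le_one)
  have h0 : g 1 = 0 := by
    rw [gronwallBound_ε0_δ0] at this
    exact norm_le_zero_iff.1 this
  have := congrArg Prod.fst h0
  simpa [hg] using this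

/-- Local data at the point x0: a chart in which all the functions K(., eta) satisfy the same linear
second order system away from eta. -/
structure LocSys [TopologicalSpace B] (K : B → B → ℝ) (E : Type*) [NormedAddCommGroup E]
    [NormedSpace ℝ E] (x0 : B) where
  e : OpenPartialHomeomorph B E
  mem : x0 ∈ e.source
  r : ℝ
  r_pos : 0 < r
  sub : ball (e x0) r ⊆ e.target
  C : ℝ
  C_nonneg : 0 ≤ C
  b : E → (ℝ × (E →L[ℝ] ℝ)) →ₗ[ℝ] (E →L[ℝ] E →L[ℝ] ℝ)
  b_bd : ∀ x ∈ ball (e x0) r, ∀ u, ‖b x u‖ ≤ C * ‖u‖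
  cd : ∀ η, ∀ x ∈ ball (e x0) r, e.symm x ≠ η → ContDiffAt ℝ 2 (fun x => K (e.symm x) η) x
  eqn : ∀ η, ∀ x ∈ ball (e x0) r, e.symm x ≠ η →
    fderiv ℝ (fderiv ℝ (fun x => K (e.symm x) η)) x
      = b x (K (e.symm x) η, fderiv ℝ (fun x => K (e.symm x) η) x)

section

variable [TopologicalSpace B] [T1Space B] {K : B → B → ℝ}

/-- The combination with coefficients c. -/
def comb (K : B → B → ℝ) (y : Fin 4 → B) (c : Fin 4 → ℝ) (x : B) : ℝ := ∑ i, c i * K x (y i)

/-- A smaller ball around x0 avoiding the four points, on which every combination satisfies the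
system. -/
theorem exists_ball (y : Fin 4 → B) {x0 : B} (hx0 : ∀ i, x0 ≠ y i) (L : LocSys K E x0) :
    ∃ r' : ℝ, 0 < r' ∧ r' ≤ L.r ∧ ∀ x ∈ ball (L.e x0) r', ∀ i, L.e.symm x ≠ y i := by
  have hopen : IsOpen (L.e.target ∩ L.e.symm ⁻¹' (⋂ i, {y i}ᶜ)) := by
    refine L.e.symm.isOpen_inter_preimage (isOpen_iInter_of_finite fun i => ?_)
    exact isOpen_compl_singleton
  have hmem : L.e x0 ∈ L.e.target ∩ L.e.symm ⁻¹' (⋂ i, {y i}ᶜ) := by
    refine ⟨L.e.map_source L.mem, ?_⟩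
    rw [mem_preimage, L.e.left_inv L.mem]
    exact mem_iInter.2 (fun i => hx0 i)
  obtain ⟨δ, hδ, hsub⟩ := Metric.isOpen_iff.1 hopen _ hmem
  refine ⟨min δ L.r, lt_min hδ L.r_pos, min_le_right _ _, ?_⟩
  intro x hx i
  have := (hsub (ball_subset_ball (min_le_left _ _) hx)).2
  exact mem_iInter.1 this i

omit [T1Space B] in
theorem comb_sys (y : Fin 4 → B) {x0 : B} (L : LocSys K E x0) (c : Fin 4 → ℝ) {x : E}
    (hx : x ∈ ball (L.e x0) L.r) (hxy : ∀ i, L.e.symm x ≠ y i) :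
    ContDiffAt ℝ 2 (fun x => comb K y c (L.e.symm x)) x ∧
    fderiv ℝ (fun x => comb K y c (L.e.symm x)) x
      = ∑ i, c i • fderiv ℝ (fun x => K (L.e.symm x) (y i)) x ∧
    fderiv ℝ (fderiv ℝ (fun x => comb K y c (L.e.symm x))) x
      = L.b x (comb K y c (L.e.symm x), fderiv ℝ (fun x => comb K y c (L.e.symm x)) x) := by
  have hcd : ∀ i, ContDiffAt ℝ 2 (fun x => K (L.e.symm x) (y i)) x := fun i => L.cd _ x hx (hxy i)
  have h1 : ∀ᶠ z in 𝓝 x, fderiv ℝ (fun x => comb K y c (L.e.symm x)) z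
      = ∑ i, c i • fderiv ℝ (fun x => K (L.e.symm x) (y i)) z := by
    have : ∀ᶠ z in 𝓝 x, ∀ i, ContDiffAt ℝ 2 (fun x => K (L.e.symm x) (y i)) z :=
      eventually_all.2 (fun i => (hcd i).eventually (by simp))
    filter_upwards [this] with z hz
    have hd : HasFDerivAt (fun x => comb K y c (L.e.symm x))
        (∑ i, c i • fderiv ℝ (fun x => K (L.e.symm x) (y i)) z) z := by
      have := HasFDerivAt.fun_sum (u := Finset.univ)
        (A := fun i x => c i * K (L.e.symm x) (y i))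
        (A' := fun i => c i • fderiv ℝ (fun x => K (L.e.symm x) (y i)) z) (x := z)
        (fun i _ => (((hz i).differentiableAt (by norm_num)).hasFDerivAt).const_mul (c i))
      exact this
    exact hd.fderiv
  refine ⟨?_, h1.self_of_nhds, ?_⟩
  · refine ContDiffAt.sum (fun i _ => ?_)
    exact contDiffAt_const.mul (hcd i)
  · rw [Filter.EventuallyEq.fderiv_eq h1, h1.self_of_nhds]
    have h2 : HasFDerivAt (fun z => ∑ i, c i • fderiv ℝ (fun x => K (L.e.symm x) (y i)) z)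
        (∑ i, c i • fderiv ℝ (fderiv ℝ (fun x => K (L.e.symm x) (y i))) x) x := by
      refine HasFDerivAt.fun_sum (fun i _ => ?_)
      exact ((((hcd i).fderiv_right (m := 1) (by norm_num)).differentiableAt
        (by norm_num)).hasFDerivAt).const_smul (c i)
    rw [h2.fderiv]
    have h3 : (comb K y c (L.e.symm x), ∑ i, c i • fderiv ℝ (fun x => K (L.e.symm x) (y i)) x)
        = ∑ i, c i • (K (L.e.symm x) (y i), fderiv ℝ (fun x => K (L.e.symm x) (y i)) x) := by
      ext1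
      · simp [comb, Prod.fst_sum]
      · simp [Prod.snd_sum]
    rw [h3, map_sum]
    refine Finset.sum_congr rfl (fun i _ => ?_)
    rw [map_smul, L.eqn _ x hx (hxy i)]

omit [T1Space B] in
/-- If a combination vanishes together with its derivative at one point of the small ball (in the
chart), it vanishes in a neighbourhood of x0. -/
theorem comb_zero (y : Fin 4 → B) {x0 : B} (L : LocSys K E x0) (c : Fin 4 → ℝ) {r' : ℝ}
    (hr'0 : 0 < r') (hr' : r' ≤ L.r) (hav : ∀ x ∈ ball (L.e x0) r', ∀ i, L.e.symm x ≠ y i)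
    {z : E} (hz : z ∈ ball (L.e x0) r') (hz0 : comb K y c (L.e.symm z) = 0)
    (hz1 : fderiv ℝ (fun x => comb K y c (L.e.symm x)) z = 0) :
    ∀ᶠ x in 𝓝 x0, comb K y c x = 0 := by
  have key := zero_of_system (v := fun x => comb K y c (L.e.symm x)) (p := L.e x0) (r := r')
    L.C_nonneg (b := L.b) (fun x hx u => L.b_bd x (ball_subset_ball hr' hx) u)
    (fun x hx => (comb_sys y L c (ball_subset_ball hr' hx) (hav x hx)).1)
    (fun x hx => (comb_sys y L c (ball_subset_ball hr' hx) (hav x hx)).2.2) hz hz0 hz1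
  have h1 : ∀ᶠ x in 𝓝 x0, L.e x ∈ ball (L.e x0) r' :=
    (L.e.continuousAt L.mem).eventually (ball_mem_nhds _ hr'0)
  have h2 : ∀ᶠ x in 𝓝 x0, x ∈ L.e.source := L.e.open_source.mem_nhds L.mem
  filter_upwards [h1, h2] with x hx hx2
  have := key _ hx
  simpa only [L.e.left_inv hx2] using this

/-- Four functions K(., y_i) are linearly dependent. -/
theorem dep4 [FiniteDimensional ℝ E] (hE : finrank ℝ E = 2)
    (hK : ∀ y, Continuous (fun x => K x y)) (L : ∀ x0 : B, Nonempty (LocSys K E x0))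
    (hconn : ∀ s : Set B, s.Finite → IsPreconnected sᶜ)
    (hdense : ∀ s : Set B, s.Finite → Dense sᶜ) (y : Fin 4 → B) :
    ∃ c : Fin 4 → ℝ, c ≠ 0 ∧ ∀ x, ∑ i, c i * K x (y i) = 0 := by
  classical
  have hSfin : (Set.range y).Finite := Set.finite_range y
  have hcK : ∀ c : Fin 4 → ℝ, Continuous (comb K y c) := fun c =>
    continuous_finsetSum _ (fun i _ => continuous_const.mul (hK (y i)))
  by_cases hne : ((Set.range y)ᶜ : Set B).Nonempty
  · obtain ⟨x0, hx0⟩ := hne
    have hx0' : ∀ i, x0 ≠ y i := fun i h => hx0 ⟨i, h.symm⟩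
    obtain ⟨L0⟩ := L x0
    obtain ⟨r', hr'0, hr'1, hav⟩ := exists_ball y hx0' L0
    have hmem0 : L0.e x0 ∈ ball (L0.e x0) r' := mem_ball_self hr'0
    -- the jet map has a kernel
    let J : (Fin 4 → ℝ) →ₗ[ℝ] ℝ × (E →L[ℝ] ℝ) :=
      { toFun := fun c => ∑ i, c i • (K x0 (y i),
          fderiv ℝ (fun x => K (L0.e.symm x) (y i)) (L0.e x0))
        map_add' := fun c d => by
          simp only [Pi.add_apply, add_smul, Finset.sum_add_distrib]
        map_smul' := fun t c => by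
          simp only [Pi.smul_apply, smul_eq_mul, RingHom.id_apply, Finset.smul_sum, mul_smul] }
    have hdim : finrank ℝ (ℝ × (E →L[ℝ] ℝ)) < finrank ℝ (Fin 4 → ℝ) := by
      have h1 : finrank ℝ (E →L[ℝ] ℝ) = 2 := by
        have h2 : finrank ℝ (E →L[ℝ] ℝ) = finrank ℝ (E →ₗ[ℝ] ℝ) :=
          (LinearMap.toContinuousLinearMap (𝕜 := ℝ) (E := E) (F' := ℝ)).finrank_eq.symm
        rw [h2, Module.finrank_linearMap, hE]
        simp
      rw [Module.finrank_prod, h1]
      simp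
    obtain ⟨c, hcker, hc0⟩ := Submodule.exists_mem_ne_zero_of_ne_bot
      (LinearMap.ker_ne_bot_of_finrank_lt (f := J) hdim)
    have hJ : ∑ i, c i • ((K x0 (y i),
        fderiv ℝ (fun x => K (L0.e.symm x) (y i)) (L0.e x0)) : ℝ × (E →L[ℝ] ℝ)) = 0 := hcker
    have hz0 : comb K y c (L0.e.symm (L0.e x0)) = 0 := by
      rw [L0.e.left_inv L0.mem]
      have := congrArg Prod.fst hJ
      simpa [comb, Prod.fst_sum] using this
    have hz1 : fderiv ℝ (fun x => comb K y c (L0.e.symm x)) (L0.e x0) = 0 := by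
      rw [(comb_sys y L0 c (ball_subset_ball hr'1 hmem0) (hav _ hmem0)).2.1]
      have := congrArg Prod.snd hJ
      simpa [Prod.snd_sum] using this
    have hloc0 : ∀ᶠ x in 𝓝 x0, comb K y c x = 0 :=
      comb_zero y L0 c hr'0 hr'1 hav hmem0 hz0 hz1
    -- the set where it vanishes locally
    set T : Set B := {x | ∀ᶠ x' in 𝓝 x, comb K y c x' = 0} with hT
    have hTopen : IsOpen T := by
      rw [isOpen_iff_mem_nhds]
      intro x hx
      exact eventually_eventually_nhds.2 hx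
    have hTclosed : ∀ x ∈ (Set.range y)ᶜ, x ∈ closure T → x ∈ T := by
      intro x hx hxT
      have hx' : ∀ i, x ≠ y i := fun i h => hx ⟨i, h.symm⟩
      obtain ⟨Lx⟩ := L x
      obtain ⟨ρ, hρ0, hρ1, hρ⟩ := exists_ball y hx' Lx
      have hU : {x' | x' ∈ Lx.e.source ∧ Lx.e x' ∈ ball (Lx.e x) ρ} ∈ 𝓝 x :=
        Filter.inter_mem (Lx.e.open_source.mem_nhds Lx.mem)
          ((Lx.e.continuousAt Lx.mem).eventually (ball_mem_nhds _ hρ0))
      obtain ⟨z, ⟨hz1, hz2⟩, hzT⟩ := mem_closure_iff_nhds.1 hxT _ hU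
      have hev : ∀ᶠ w in 𝓝 (Lx.e z), comb K y c (Lx.e.symm w) = 0 := by
        have hcont : ContinuousAt Lx.e.symm (Lx.e z) :=
          Lx.e.symm.continuousAt (Lx.e.map_source hz1)
        have hzT' : ∀ᶠ x' in 𝓝 (Lx.e.symm (Lx.e z)), comb K y c x' = 0 := by
          rw [Lx.e.left_inv hz1]
          exact hzT
        exact hcont.eventually hzT'
      refine comb_zero y Lx c hρ0 hρ1 hρ hz2 hev.self_of_nhds ?_
      have : (fun w => comb K y c (Lx.e.symm w)) =ᶠ[𝓝 (Lx.e z)] fun _ => (0 : ℝ) := hev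
      rw [this.fderiv_eq]
      simp
    have hsub : ((Set.range y)ᶜ : Set B) ⊆ T := by
      refine (hconn _ hSfin).subset_of_closure_inter_subset hTopen ⟨x0, hx0, hloc0⟩ ?_
      rintro x ⟨h1, h2⟩
      exact hTclosed x h2 h1
    have hzero : ∀ x ∈ ((Set.range y)ᶜ : Set B), comb K y c x = 0 := fun x hx =>
      (hsub hx : ∀ᶠ x' in 𝓝 x, comb K y c x' = 0).self_of_nhds
    refine ⟨c, hc0, fun x => ?_⟩
    have hcl : IsClosed {x | comb K y c x = 0} := isClosed_eq (hcK c) continuous_const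
    have : closure ((Set.range y)ᶜ : Set B) ⊆ {x | comb K y c x = 0} :=
      hcl.closure_subset_iff.2 hzero
    exact this ((hdense _ hSfin) x)
  · exfalso
    have hemp : ((Set.range y)ᶜ : Set B) = ∅ := Set.not_nonempty_iff_eq_empty.1 hne
    have hd := hdense _ hSfin
    rw [hemp] at hd
    have := hd (y 0)
    simp at this

/-- (S3) of REF 6: THE CASE W = 0 IS IMPOSSIBLE. -/
theorem no_W0 [FiniteDimensional ℝ E] (hE : finrank ℝ E = 2)
    (hK : ∀ y, Continuous (fun x => K x y)) (h0 : ∀ x, K x x = 0)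
    (hp : ∀ x y, x ≠ y → 0 < K x y) (L : ∀ x0 : B, Nonempty (LocSys K E x0))
    (hconn : ∀ s : Set B, s.Finite → IsPreconnected sᶜ)
    (hdense : ∀ s : Set B, s.Finite → Dense sᶜ)
    (p : Fin 4 → B) (hpi : Function.Injective p) : False :=
  no_rank3 K hK h0 hp (dep4 hE hK L hconn hdense)
    (fun _ _ => hconn _ (Set.toFinite _)) p hpi

end

end Vale.Agent.P207.N3.H340
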